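import Vale.Agent.Lib.P371.ZAssemble
import Vale.Agent.Lib.P371.SharpA.HandExact
import Vale.Agent.Lib.P371.SharpA.GammaOne
import Vale.Agent.Lib.P371.SharpA.LclGamma

/-!
The Lieb-Thirring inequalities on the line for all `1 / 2 < γ < 3 / 2` and all matrix sizes, with the
sharp constant at `γ = 1`.
-/

open MeasureTheory Matrix
open scoped ComplexOrder

namespace Vale.Agent.Results.P371.A000AllGamma

/-- For every `m`, `N`, every measurable positive semidefinite `m × m` potential `W` and every family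
`ψ_1, …, ψ_N` in `H¹(ℝ; ℂ^m)`, orthonormal in `L²`, with `e_j = ∫ ⟨ψ_j, W ψ_j⟩ - ∫ ‖ψ_j'‖²`:

* for `1 ≤ γ < 3 / 2`, if `∫ tr W^(γ + 1/2) < ∞`, then each `⟨ψ_j, W ψ_j⟩` is integrable and
  `∑_j max(e_j, 0)^γ ≤ (2 / √3)^(3 - 2 γ) * L^cl_γ * ∫ tr W^(γ + 1/2)`;
* for `1 / 2 < γ ≤ 1`, if `∫ tr W^(γ + 1/2) < ∞` and the form of `H_W` on the family is diagonal with
  the values `-κ_j²`, `κ_1 ≥ … ≥ κ_N > 0`, then
  `∑_j κ_j^(2 γ) ≤ (2 - (γ - 1/2) / 60) * L^cl_γ * ∫ tr W^(γ + 1/2)`. -/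
theorem result {m N : ℕ} (W : ℝ → Matrix (Fin m) (Fin m) ℂ) (hW : ∀ x, (W x).PosSemidef)
    (hWm : ∀ i j, Measurable fun x => W x i j)
    (ψ ψ' : Fin N → ℝ → Fin m → ℂ)
    (hH : ∀ j c, Vale.Agent.Lib.P371.IsH1 (fun x => ψ j x c) (fun x => ψ' j x c))
    (horth : ∀ j k, ∑ c, ∫ x, star (ψ j x c) * ψ k x c = if j = k then 1 else 0) :
    (∀ γ : ℝ, 1 ≤ γ → γ < 3 / 2 →
      Integrable (fun x => ∑ i, (hW x).isHermitian.eigenvalues i ^ (γ + 1 / 2)) →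
      (∀ j, Integrable fun x => (star (ψ j x) ⬝ᵥ W x *ᵥ ψ j x).re) ∧
        ∑ j, (max ((∫ x, (star (ψ j x) ⬝ᵥ W x *ᵥ ψ j x).re) - ∑ c, ∫ x, ‖ψ' j x c‖ ^ 2) 0) ^ γ ≤
          (2 / √3) ^ (3 - 2 * γ) * Vale.Agent.Lib.P371.Lcl γ *
            ∫ x, ∑ i, (hW x).isHermitian.eigenvalues i ^ (γ + 1 / 2)) ∧
    (∀ (γ : ℝ) (κ : Fin N → ℝ), 1 / 2 < γ → γ ≤ 1 →
      Integrable (fun x => ∑ i, (hW x).isHermitian.eigenvalues i ^ (γ + 1 / 2)) →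
      (∀ j k, (∑ c, ∫ x, star (ψ' j x c) * ψ' k x c) -
        ∫ x, star (ψ j x) ⬝ᵥ W x *ᵥ ψ k x = if j = k then -((κ j : ℂ) ^ 2) else 0) →
      (∀ j, 0 < κ j) → Antitone κ →
      ∑ j, κ j ^ (2 * γ) ≤ (2 - (γ - 1 / 2) / 60) * Vale.Agent.Lib.P371.Lcl γ *
        ∫ x, ∑ i, (hW x).isHermitian.eigenvalues i ^ (γ + 1 / 2)) := by
  refine ⟨fun γ h1 h2 hWint => ?_, fun γ κ h1 h2 hWint hdiag hκ hanti =>
    Vale.Agent.Lib.P371.bound_gamma h1 h2 hW hWm hWint ψ ψ' κ hH horth hdiag hκ hanti⟩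
  rcases h1.eq_or_lt with rfl | h1'
  · exact Vale.Agent.Lib.P371.SharpA.sharp_one_max hW hWm hWint hH horth
  · have h := Vale.Agent.Lib.P371.SharpA.lt_exact h1' h2 hW hWm hWint hH horth
    rw [Vale.Agent.Lib.P371.SharpA.Lcl_eq_gamma (by linarith : (0 : ℝ) ≤ γ)]
    exact h

end Vale.Agent.Results.P371.A000AllGamma
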