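import Vale.Agent.Lib.P371.Sharp.RowsFinal

/-!
The sharp matrix Lieb-Thirring inequality at `γ = 1` on the line, with the constant
`(2 / √3) * L^cl_1`, `L^cl_1 = 2 / (3 π)`, in the form of the trial-state (orthonormal family)
inequality, for every matrix size `m`.
-/

open MeasureTheory Matrix
open scoped ComplexOrder

namespace Vale.Agent.Results.P371.A00MatrixSharp

/-- For every measurable positive semidefinite `m × m` potential `W` with `∫ tr W^(3/2) < ∞` and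
every `L²`-orthonormal family `ψ_1, …, ψ_N` in `H¹(ℝ; ℂ^m)`:
`∑_j (∫ ⟨ψ_j, W ψ_j⟩ - ∫ ‖ψ_j'‖²) ≤ (2 / √3) * (2 / (3 π)) * ∫ tr W^(3/2)`. -/
theorem result {m N : ℕ} (W : ℝ → Matrix (Fin m) (Fin m) ℂ) (hW : ∀ x, (W x).PosSemidef)
    (hWm : ∀ i j, Measurable fun x => W x i j)
    (hWint : Integrable fun x => ∑ i, (hW x).isHermitian.eigenvalues i ^ (3 / 2 : ℝ))
    (ψ ψ' : Fin N → ℝ → Fin m → ℂ)
    (hH : ∀ j c, Vale.Agent.Lib.P371.IsH1 (fun x => ψ j x c) (fun x => ψ' j x c))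
    (horth : ∀ j k, ∑ c, ∫ x, star (ψ j x c) * ψ k x c = if j = k then 1 else 0) :
    (∀ j, Integrable fun x => (star (ψ j x) ⬝ᵥ W x *ᵥ ψ j x).re) ∧
      ∑ j, ((∫ x, (star (ψ j x) ⬝ᵥ W x *ᵥ ψ j x).re) - ∑ c, ∫ x, ‖ψ' j x c‖ ^ 2) ≤
        (2 / √3) * (2 / (3 * Real.pi)) *
          ∫ x, ∑ i, (hW x).isHermitian.eigenvalues i ^ (3 / 2 : ℝ) :=
  Vale.Agent.Lib.P371.Sharp.matrix_sharp hW hWm hWint hH horth

end Vale.Agent.Results.P371.A00MatrixSharp
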