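import Vale.Agent.Lib.P371.Sharp.Final

/-!
The sharp scalar Lieb-Thirring inequality at `γ = 1` on the line, with the conjectured constant
`(2 / √3) * L^cl_1`, `L^cl_1 = 2 / (3 π)`, in the form of the trial-state (orthonormal family) inequality.
-/

open MeasureTheory Filter Topology

namespace Vale.Agent.Results.P371.A0ScalarSharp

/-- For every nonnegative measurable potential `W` on the line with `∫ W^(3/2) < ∞` and every
`L²`-orthonormal family `ψ_1, …, ψ_N` in `H¹(ℝ)`: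
`∑_j (∫ W |ψ_j|² - ∫ |ψ_j'|²) ≤ (2 / √3) * (2 / (3 π)) * ∫ W^(3/2)`. -/
theorem result {N : ℕ} (W : ℝ → ℝ) (hW : ∀ x, 0 ≤ W x) (hWm : Measurable W)
    (hWi : Integrable fun x => W x ^ (3 / 2 : ℝ))
    (ψ ψ' : Fin N → ℝ → ℂ) (hH : ∀ j, Vale.Agent.Lib.P371.IsH1 (ψ j) (ψ' j))
    (horth : ∀ j k, ∫ x, star (ψ j x) * ψ k x = if j = k then 1 else 0) :
    (∀ j, Integrable fun x => W x * ‖ψ j x‖ ^ 2) ∧
      ∑ j, ((∫ x, W x * ‖ψ j x‖ ^ 2) - ∫ x, ‖ψ' j x‖ ^ 2) ≤
        (2 / √3) * (2 / (3 * Real.pi)) * ∫ x, W x ^ (3 / 2 : ℝ) := by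
  have hpi := Real.pi_pos
  have hC0 : (0 : ℝ) < Real.pi / 4 := by positivity
  have h14 : Real.pi / 4 < Real.pi / 2 := by linarith
  refine ⟨(Vale.Agent.Lib.P371.Sharp.scalar_bound hC0 h14 W hW hWm hWi ψ ψ' hH horth).1, ?_⟩
  set L := ∑ j, ((∫ x, W x * ‖ψ j x‖ ^ 2) - ∫ x, ‖ψ' j x‖ ^ 2) with hL
  set I := ∫ x, W x ^ (3 / 2 : ℝ) with hI
  -- the bound for `C < π / 2` along a sequence `C n → π / 2`
  let C : ℕ → ℝ := fun n => Real.pi / 2 * (1 - 1 / ((n : ℝ) + 2))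
  have hCpos : ∀ n, 0 < C n := by
    intro n
    have hn : (0 : ℝ) ≤ n := Nat.cast_nonneg n
    have h2 : 1 / ((n : ℝ) + 2) < 1 := by
      rw [div_lt_one (by positivity)]
      linarith
    exact mul_pos (by positivity) (by linarith)
  have hClt : ∀ n, C n < Real.pi / 2 := by
    intro n
    have hn : (0 : ℝ) ≤ n := Nat.cast_nonneg n
    have h2 : 0 < 1 / ((n : ℝ) + 2) := by positivity
    have hp2 : 0 < Real.pi / 2 := by positivity
    show Real.pi / 2 * (1 - 1 / ((n : ℝ) + 2)) < Real.pi / 2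
    nlinarith
  have hb : ∀ n, L ≤ 2 / (3 * √3 * C n) * I := fun n =>
    (Vale.Agent.Lib.P371.Sharp.scalar_bound (hCpos n) (hClt n) W hW hWm hWi ψ ψ' hH horth).2
  have hClim : Tendsto C atTop (𝓝 (Real.pi / 2)) := by
    have h1 : Tendsto (fun n : ℕ => 1 / ((n : ℝ) + 2)) atTop (𝓝 0) := by
      have := tendsto_one_div_add_atTop_nhds_zero_nat (𝕜 := ℝ)
      have h3 := this.comp (tendsto_add_atTop_nat 1)
      refine h3.congr fun n => ?_
      simp only [Function.comp_apply, Nat.cast_add, Nat.cast_one]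
      ring_nf
    have h2 : Tendsto (fun n : ℕ => Real.pi / 2 * (1 - 1 / ((n : ℝ) + 2))) atTop
        (𝓝 (Real.pi / 2 * (1 - 0))) := (tendsto_const_nhds.sub h1).const_mul _
    have e : Real.pi / 2 * (1 - 0) = Real.pi / 2 := by ring
    rw [e] at h2
    exact h2
  have hs3 : (0 : ℝ) < √3 := by positivity
  have hlim : Tendsto (fun n => 2 / (3 * √3 * C n) * I) atTop
      (𝓝 (2 / (3 * √3 * (Real.pi / 2)) * I)) := by
    apply Tendsto.mul_const
    apply Tendsto.div tendsto_const_nhds (hClim.const_mul _)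
    positivity
  have hfin := ge_of_tendsto' hlim hb
  have hval : 2 / (3 * √3 * (Real.pi / 2)) * I = (2 / √3) * (2 / (3 * Real.pi)) * I := by
    field_simp
  rw [hval] at hfin
  exact hfin

end Vale.Agent.Results.P371.A0ScalarSharp
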