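import Vale.Agent.Lib.P371.SharpA.Line
import Vale.Agent.Lib.P371.SharpA.MixFinal
import Vale.Agent.Lib.P371.SharpA.Compare

/-!
A near sharp Lieb-Thirring inequality on the line for all `1 < γ < 3 / 2` and all matrix sizes, in
the form of the trial-state (orthonormal family) inequality.
-/

open MeasureTheory Matrix
open scoped ComplexOrder
open Vale.Agent.Lib.P371.SharpA

namespace Vale.Agent.Results.P371.A1GammaNearSharp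

/-- For `1 < γ < 3 / 2`, every `m`, `N`, every measurable positive semidefinite `m × m` potential
`W` with `∫ tr W^(γ + 1 / 2) < ∞` and every `L²`-orthonormal family `ψ_1, …, ψ_N` in `H¹(ℝ; ℂ^m)`,
with `e_j = ∫ ⟨ψ_j, W ψ_j⟩ - ∫ ‖ψ_j'‖²`:
`∑_j max(e_j, 0)^γ ≤ K ∫ tr W^(γ + 1 / 2)`, where `K = dMix (3 - 2 γ) / cMix (3 - 2 γ)`,
`cMix μ = ∫_0^∞ t^(-μ) Lam1 t dt`, `dMix μ = ∫_0^∞ t^(-μ) Xcl t dt`, and `K ≤ (1/4) (3/4)^(2 γ - 2)`. -/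
theorem result {m N : ℕ} {γ : ℝ} (h1 : 1 < γ) (h2 : γ < 3 / 2)
    (W : ℝ → Matrix (Fin m) (Fin m) ℂ) (hW : ∀ x, (W x).PosSemidef)
    (hWm : ∀ i j, Measurable fun x => W x i j)
    (hWint : Integrable fun x => ∑ i, (hW x).isHermitian.eigenvalues i ^ (γ + 1 / 2))
    (ψ ψ' : Fin N → ℝ → Fin m → ℂ)
    (hH : ∀ j c, Vale.Agent.Lib.P371.IsH1 (fun x => ψ j x c) (fun x => ψ' j x c))
    (horth : ∀ j k, ∑ c, ∫ x, star (ψ j x c) * ψ k x c = if j = k then 1 else 0) :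
    (∀ j, Integrable fun x => (star (ψ j x) ⬝ᵥ W x *ᵥ ψ j x).re) ∧
      ∑ j, (max ((∫ x, (star (ψ j x) ⬝ᵥ W x *ᵥ ψ j x).re) - ∑ c, ∫ x, ‖ψ' j x c‖ ^ 2) 0) ^ γ ≤
        dMix (3 - 2 * γ) / cMix (3 - 2 * γ) *
          ∫ x, ∑ i, (hW x).isHermitian.eigenvalues i ^ (γ + 1 / 2) ∧
      dMix (3 - 2 * γ) / cMix (3 - 2 * γ) ≤ 1 / 4 * (3 / 4 : ℝ) ^ (2 * γ - 2) := by
  have hμ0 : 0 < 3 - 2 * γ := by linarith
  have hμ1 : 3 - 2 * γ < 1 := by linarith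
  have hc := cMix_pos hμ0 hμ1
  have e1 : 2 - (3 - 2 * γ) / 2 = γ + 1 / 2 := by ring
  have e2 : (3 - (3 - 2 * γ)) / 2 = γ := by ring
  have e3 : 1 - (3 - 2 * γ) = 2 * γ - 2 := by ring
  have hW' : Integrable fun x => ∑ i, (hW x).isHermitian.eigenvalues i ^ (2 - (3 - 2 * γ) / 2) := by
    rw [e1]
    exact hWint
  obtain ⟨hV, hmain⟩ := mix_final
    (fun Φ Φ' h d h0 h1 hG a ha => rowsA_line Φ Φ' h h0 h1 hG ha) hμ0 hμ1 hW hWm hW' hH horth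
  rw [e1, e2] at hmain
  refine ⟨hV, ?_, ?_⟩
  · rw [div_mul_eq_mul_div, le_div_iff₀ hc, mul_comm]
    exact hmain
  · rw [div_le_iff₀ hc, ← e3]
    exact dMix_le hμ0 hμ1

end Vale.Agent.Results.P371.A1GammaNearSharp
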