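import Vale.Agent.Lib.P371.ZAssemble

/-!
Matrix Lieb-Thirring bound for `1/2 < γ ≤ 1` with constant strictly below `2 L^cl_γ`.
-/

open MeasureTheory Matrix
open scoped ComplexOrder

namespace Vale.Agent.Results.P371.GammaBelowOne

/-- For `1/2 < γ ≤ 1`, every measurable positive semidefinite `m × m` potential `W` with
`∫ tr W^(γ + 1/2) < ∞` and every family `ψ_1, …, ψ_N` in `H¹(ℝ; ℂ^m)`, orthonormal in `L²`, on which
the quadratic form of `H_W = -d²/dx² - W` is diagonal with the negative values `-κ_j²`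
(`κ_1 ≥ … ≥ κ_N > 0`), as happens for eigenfunctions with eigenvalues `-κ_j²`:
`∑_j κ_j^(2γ) ≤ (2 - (γ - 1/2) / 60) * L^cl_γ * ∫ tr W^(γ + 1/2)`. -/
theorem result {m N : ℕ} {γ : ℝ} (hγ1 : 1 / 2 < γ) (hγ2 : γ ≤ 1)
    (W : ℝ → Matrix (Fin m) (Fin m) ℂ) (hW : ∀ x, (W x).PosSemidef)
    (hWm : ∀ i j, Measurable fun x => W x i j)
    (hWint : Integrable fun x => ∑ i, (hW x).isHermitian.eigenvalues i ^ (γ + 1 / 2))
    (ψ ψ' : Fin N → ℝ → Fin m → ℂ) (κ : Fin N → ℝ)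
    (hH : ∀ j c, Vale.Agent.Lib.P371.IsH1 (fun x => ψ j x c) (fun x => ψ' j x c))
    (horth : ∀ j k, ∑ c, ∫ x, star (ψ j x c) * ψ k x c = if j = k then 1 else 0)
    (hdiag : ∀ j k, (∑ c, ∫ x, star (ψ' j x c) * ψ' k x c) -
        ∫ x, star (ψ j x) ⬝ᵥ W x *ᵥ ψ k x = if j = k then -((κ j : ℂ) ^ 2) else 0)
    (hκ : ∀ j, 0 < κ j) (hanti : Antitone κ) :
    ∑ j, κ j ^ (2 * γ) ≤ (2 - (γ - 1 / 2) / 60) * Vale.Agent.Lib.P371.Lcl γ *
      ∫ x, ∑ i, (hW x).isHermitian.eigenvalues i ^ (γ + 1 / 2) :=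
  Vale.Agent.Lib.P371.bound_gamma hγ1 hγ2 hW hWm hWint ψ ψ' κ hH horth hdiag hκ hanti

end Vale.Agent.Results.P371.GammaBelowOne
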