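import Vale.Agent.Lib.P371.CalFinal
import Vale.Agent.Lib.P371.CalBd3j9

/-!
Scalar Lieb-Thirring inequality at `γ = 1` on the line with constant `1.1882 * L^cl_1`, where
`L^cl_1 = 2 / (3 π)`, in the form of the trial-state (orthonormal family) inequality.
-/

open MeasureTheory

namespace Vale.Agent.Results.P371.ScalarConstant

open Vale.Agent.Lib.P371.CalB

/-- The calibration. -/
noncomputable def cal : Vale.Agent.Lib.P371.Cal.CalData :=
  mkCal D3J9.checks (by norm_num) (1 / 10 ^ 10) (15266 / 10000) (by norm_num) (by norm_num)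
    (by rw [D3J9.start0_eq, D3J9.sumAbs_eq]; norm_num)
    (by rw [D3J9.start0_eq, D3J9.sumAbs_eq]; norm_num)

/-- For every nonnegative measurable potential `W` on the line with `∫ W^(3/2) < ∞` and every
`L²`-orthonormal family `ψ_1, …, ψ_N` in `H¹(ℝ)`:
`∑_j (∫ W |ψ_j|² - ∫ |ψ_j'|²) ≤ 1.1882 * (2 / (3 π)) * ∫ W^(3/2)`. -/
theorem result {N : ℕ} (W : ℝ → ℝ) (hW : ∀ x, 0 ≤ W x) (hWm : Measurable W)
    (hWi : Integrable fun x => W x ^ (3 / 2 : ℝ))
    (ψ ψ' : Fin N → ℝ → ℂ) (hH : ∀ j, Vale.Agent.Lib.P371.IsH1 (ψ j) (ψ' j))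
    (horth : ∀ j k, ∫ x, star (ψ j x) * ψ k x = if j = k then 1 else 0) :
    (∀ j, Integrable fun x => W x * ‖ψ j x‖ ^ 2) ∧
      ∑ j, ((∫ x, W x * ‖ψ j x‖ ^ 2) - ∫ x, ‖ψ' j x‖ ^ 2) ≤
        (11882 / 10000) * (2 / (3 * Real.pi)) * ∫ x, W x ^ (3 / 2 : ℝ) := by
  have hC : (0 : ℝ) < 152659 / 100000 := by norm_num
  have hCD : (152659 / 100000 : ℝ) < cal.Cstart := by
    show (152659 / 100000 : ℝ) < 15266 / 10000
    norm_num
  obtain ⟨h1, h2⟩ := Vale.Agent.Lib.P371.Cal.scalar_bound cal hC hCD W hW hWm hWi ψ ψ' hH horth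
  refine ⟨h1, h2.trans ?_⟩
  have hI : 0 ≤ ∫ x, W x ^ (3 / 2 : ℝ) :=
    integral_nonneg fun x => Real.rpow_nonneg (hW x) _
  apply mul_le_mul_of_nonneg_right _ hI
  have hs : (1.73205 : ℝ) ≤ √3 := Real.le_sqrt' (by norm_num) |>.2 (by norm_num)
  have hp := Real.pi_lt_d4
  have hp0 := Real.pi_pos
  have hs0 : 0 < √3 := by positivity
  rw [div_le_iff₀ (by positivity)]
  have h3 : 11882 / 10000 * (2 / (3 * Real.pi)) * (3 * √3 * (152659 / 100000))
      = (2 * (11882 / 10000) * √3 * (152659 / 100000)) / Real.pi := by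
    field_simp
  rw [h3, le_div_iff₀ hp0]
  nlinarith

end Vale.Agent.Results.P371.ScalarConstant
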