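import Vale.Agent.Lib.P371.CalFinal
import Vale.Agent.Lib.P371.CalDataBC

/-!
The scalar Lieb-Thirring inequality at `γ = 1` on the line with constant `1.198 * L^cl_1`,
where `L^cl_1 = 2 / (3 π)`, in the form of the trial-state (orthonormal family) inequality.
-/

open MeasureTheory

namespace Vale.Agent.Results.P371.ScalarGammaOne

open Vale.Agent.Lib.P371.Cal Vale.Agent.Lib.P371.Cal.Bern in
/-- For every measurable `W ≥ 0` with `∫ W^(3/2) < ∞` and every `L²`-orthonormal family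
`ψ_1, …, ψ_N` in `H¹(ℝ)`: `∑_j (∫ W |ψ_j|² - ∫ |ψ_j'|²) ≤ 1.198 * (2 / (3 π)) * ∫ W^(3/2)`. -/
theorem result {N : ℕ} (W : ℝ → ℝ) (hW : ∀ x, 0 ≤ W x) (hWm : Measurable W)
    (hWi : Integrable fun x => W x ^ (3 / 2 : ℝ))
    (ψ ψ' : Fin N → ℝ → ℂ) (hH : ∀ j, Vale.Agent.Lib.P371.IsH1 (ψ j) (ψ' j))
    (horth : ∀ j k, ∫ x, star (ψ j x) * ψ k x = if j = k then 1 else 0) :
    (∀ j, Integrable fun x => W x * ‖ψ j x‖ ^ 2) ∧
      ∑ j, ((∫ x, W x * ‖ψ j x‖ ^ 2) - ∫ x, ‖ψ' j x‖ ^ 2) ≤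
        (1198 / 1000) * (2 / (3 * Real.pi)) * ∫ x, W x ^ (3 / 2 : ℝ) := by
  have hC : (0 : ℝ) < 15143 / 10000 := by norm_num
  have hCD : (15143 / 10000 : ℝ) < d39_cal.Cstart := by
    rw [d39_cal_Cstart]
    norm_num
  obtain ⟨h1, h2⟩ := scalar_bound d39_cal hC hCD W hW hWm hWi ψ ψ' hH horth
  refine ⟨h1, h2.trans ?_⟩
  have hI : 0 ≤ ∫ x, W x ^ (3 / 2 : ℝ) := integral_nonneg fun x => Real.rpow_nonneg (hW x) _
  refine mul_le_mul_of_nonneg_right ?_ hI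
  have hpi := Real.pi_pos
  have hpi2 : Real.pi < 3.1416 := Real.pi_lt_d4
  have hs3 : (1.732 : ℝ) < √3 := by
    rw [Real.lt_sqrt (by norm_num)]
    norm_num
  rw [div_le_iff₀ (by positivity)]
  have h3 : (1198 / 1000 : ℝ) * (2 / (3 * Real.pi)) * (3 * √3 * (15143 / 10000)) =
      2 * ((1198 / 1000) * √3 * (15143 / 10000)) / Real.pi := by
    field_simp
  rw [h3, le_div_iff₀ hpi]
  nlinarith

end Vale.Agent.Results.P371.ScalarGammaOne
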